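import Vale.Agent.P178.H948.Cone

/-! # P178: the realization of the nerve of the suspension category is simply connected -/

open CategoryTheory Simplicial Opposite Topology Set
open Vale.Agent.P178.H301 Vale.Agent.P178.H676

namespace Vale.Agent.P178.H948

variable {G : Type} [Monoid G]

/-- there are no objects equal to a pole after another object -/
theorem ob_ge (e : Bool) {n : ℕ} (σ : (NS G) _⦋n⦌) {i j : Fin (n + 1)} (h : i ≤ j)
    (hj : ob σ j = pole G e) : ob σ i = pole G e := by
  have f : ob σ i ⟶ ob σ j := σ.map (homOfLE h)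
  rw [hj] at f
  exact no_hom e f

theorem ob_le_mid {n : ℕ} (σ : (NS G) _⦋n⦌) {i j : Fin (n + 1)} (h : i ≤ j)
    (hi : ob σ i = .mid) : ob σ j = .mid := by
  have f : ob σ i ⟶ ob σ j := σ.map (homOfLE h)
  rw [hi] at f
  exact of_mid f

theorem ob_le_pole (e : Bool) {n : ℕ} (σ : (NS G) _⦋n⦌) {i j : Fin (n + 1)} (h : i ≤ j)
    (hi : ob σ i = pole G e) : ob σ j = pole G e ∨ ob σ j = .mid := by
  have f : ob σ i ⟶ ob σ j := σ.map (homOfLE h)
  rw [hi] at f
  exact of_pole e f

/-- the operator which moves the vertices before `k` to `k` -/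
def rt {n : ℕ} (k : Fin (n + 1)) : ⦋n⦌ ⟶ ⦋n⦌ :=
  SimplexCategory.mkHom ⟨fun i => max i k, fun _ _ h => max_le_max_right k h⟩

theorem rt_apply {n : ℕ} (k i : Fin (n + 1)) : rt k i = max i k := rfl

theorem om_rt {n : ℕ} (k : Fin (n + 1)) (t : Dx n) (h : ∀ i < k, t i = 0) : om (rt k) t = t := by
  apply Subtype.ext
  funext j
  change om (rt k) t j = t j
  rw [om_apply']
  have h1 : ∀ i, (if rt k i = j then t i else 0) = if i = j then t i else 0 := by
    intro i
    rcases lt_or_ge i k with hi | hi
    · rw [h i hi, ite_self, ite_self]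
    · rw [rt_apply, max_eq_left hi]
  simp only [h1]
  simp

/-- the points without weight on a pole are fixed by the functor which replaces the pole -/
theorem rmap_kap (e : Bool) {n : ℕ} (σ : (NS G) _⦋n⦌) (t : Dx n)
    (h : ∀ i, ob σ i = pole G e → t i = 0) :
    rmap (nerveMap (kap G e)) (chi σ t) = chi σ t := by
  classical
  -- the first vertex which is not the pole
  have hex : (Finset.univ.filter fun i => ob σ i ≠ pole G e).Nonempty := by
    by_contra hne
    rw [Finset.not_nonempty_iff_eq_empty, Finset.filter_eq_empty_iff] at hne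
    have h0 : ∑ i, t i = 0 := Finset.sum_eq_zero fun i _ => h i (by
      by_contra h1
      exact hne (Finset.mem_univ i) h1)
    rw [sum_dx] at h0
    exact one_ne_zero h0
  set k := (Finset.univ.filter fun i => ob σ i ≠ pole G e).min' hex with hk
  have hk1 : ob σ k ≠ pole G e := (Finset.mem_filter.1 (Finset.min'_mem _ hex)).2
  have hk2 : ∀ i < k, t i = 0 := by
    intro i hi
    refine h i ?_
    by_contra h1
    exact absurd (Finset.min'_le _ i (Finset.mem_filter.2 ⟨Finset.mem_univ i, h1⟩)) (not_le.2 hi)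
  have e1 : chi σ t = chi ((NS G).map (rt k).op σ) t := by
    rw [chi_map, om_rt k t hk2]
  have e2 : (nerveMap (kap G e)).app _ ((NS G).map (rt k).op σ) = (NS G).map (rt k).op σ := by
    refine Susp.functor_ext (fun i => ?_) fun i j f => ?_
    · have h1 : ob σ (rt k i) ≠ pole G e := by
        intro h2
        exact hk1 (ob_ge e σ (le_max_right i k) h2)
      exact kap_obj e h1
    · exact kap_val e _
  rw [e1, rmap_chi, e2]

variable (G) in
/-- the edges from the poles -/
def eg (e : Bool) : (NS G) _⦋1⦌ := ComposableArrows.mk₁ (toP G e)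

/-- a point of a simplex which has the vertex `mid` -/
theorem exists_mid (z : SSet.toTop.obj (NS G)) :
    ∃ (n : ℕ) (σ : (NS G) _⦋n⦌) (t : Dx n) (i : Fin (n + 1)), chi σ t = z ∧ ob σ i = .mid := by
  obtain ⟨n, σ, t, rfl⟩ := exists_chi z
  by_cases hm : ∃ i, ob σ i = .mid
  · obtain ⟨i, hi⟩ := hm
    exact ⟨n, σ, t, i, rfl, hi⟩
  · push Not at hm
    obtain ⟨e, he⟩ : ∃ e, ob σ 0 = pole G e := by
      rcases pole_or (ob σ 0) with h | h
      · exact h
      · exact absurd h (hm 0)
    have h1 : ∀ i, ob σ i = pole G e := by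
      intro i
      rcases ob_le_pole e σ (Fin.zero_le i) he with h | h
      · exact h
      · exact absurd h (hm i)
    refine ⟨1, eg G e, stdSimplex.vertex 0, 1, ?_, rfl⟩
    rw [chi_vertex_eq (eg G e) 0 (x := pole G e) rfl]
    have h2 : σ = (NS G).map (SimplexCategory.const ⦋n⦌ ⦋0⦌ 0).op (vx G (pole G e)) := by
      refine Susp.functor_ext (fun i => h1 i) fun i j f => ?_
      have h3 : Susp.val (σ.map f) = 1 := val_of_ne _ (by
        have := h1 i
        intro h4
        exact pole_ne e (this.symm.trans h4))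
      rw [h3]
      exact (val_id _).symm
    have h3 : chi σ t = chi (vx G (pole G e)) (om (SimplexCategory.const ⦋n⦌ ⦋0⦌ 0) t) := by
      rw [← chi_map, ← h2]
    rw [h3]
    unfold pt
    congr 1
    exact Subsingleton.elim (α := stdSimplex ℝ (Fin 1)) _ _

/-- the straight path from a vertex -/
noncomputable def line {n : ℕ} (i : Fin (n + 1)) (t : Dx n) : Path (stdSimplex.vertex i : Dx n) t where
  toFun s := ⟨fun j => (1 - (s : ℝ)) * (stdSimplex.vertex i : Dx n) j + (s : ℝ) * t j, by
    refine ⟨fun j => ?_, ?_⟩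
    · exact add_nonneg (mul_nonneg (sub_nonneg.2 s.2.2) ((stdSimplex.vertex i : Dx n).2.1 j))
        (mul_nonneg s.2.1 (t.2.1 j))
    · rw [Finset.sum_add_distrib, ← Finset.mul_sum, ← Finset.mul_sum, sum_dx, sum_dx]
      ring⟩
  continuous_toFun := by
    refine Continuous.subtype_mk (continuous_pi fun j => ?_) _
    exact ((continuous_const.sub continuous_subtype_val).mul continuous_const).add
      (continuous_subtype_val.mul continuous_const)
  source' := by
    apply Subtype.ext
    funext j
    simp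
  target' := by
    apply Subtype.ext
    funext j
    simp
    rfl

theorem wt_line (b : Susp G) {n : ℕ} (σ : (NS G) _⦋n⦌) (i : Fin (n + 1)) (t : Dx n)
    (h : ob σ i ≠ b) (s : unitInterval) : wt b σ (line i t s) = (s : ℝ) * wt b σ t := by
  classical
  unfold wt
  rw [Finset.mul_sum]
  refine Finset.sum_congr rfl fun j _ => ?_
  split_ifs with hj
  · change (1 - (s : ℝ)) * (stdSimplex.vertex i : Dx n) j + (s : ℝ) * t j = (s : ℝ) * t j
    have h1 : (stdSimplex.vertex i : Dx n) j = 0 := by
      have : j ≠ i := by rintro rfl; exact h hj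
      simp [this]
    rw [h1, mul_zero, zero_add]
  · rw [mul_zero]

variable (G) in
/-- the cover -/
def cov (e : Bool) : Set (SSet.toTop.obj (NS G)) := {z | W (pole G e) z < 1 / 2}

theorem isOpen_cov (e : Bool) : IsOpen (cov G e) :=
  isOpen_lt (W (pole G e)).continuous continuous_const

theorem wt_zero_or {n : ℕ} (σ : (NS G) _⦋n⦌) (t : Dx n) : ∃ e, wt (pole G e) σ t = 0 := by
  classical
  have key : ∀ e, (∀ i, ob σ i ≠ pole G e) → wt (pole G e) σ t = 0 := by
    intro e h
    exact Finset.sum_eq_zero fun i _ => if_neg (h i)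
  rcases pole_or (ob σ 0) with ⟨e, he⟩ | h
  · refine ⟨!e, key _ fun i hi => ?_⟩
    rcases ob_le_pole e σ (Fin.zero_le i) he with h | h
    · exact pole_ne_not e (h.symm.trans hi)
    · exact pole_ne (!e) (hi.symm.trans h)
  · exact ⟨true, key _ fun i hi => pole_ne true (hi.symm.trans (ob_le_mid σ (Fin.zero_le i) h))⟩

theorem cov_cover (z : SSet.toTop.obj (NS G)) : ∃ e, z ∈ cov G e := by
  obtain ⟨n, σ, t, rfl⟩ := exists_chi z
  obtain ⟨e, he⟩ := wt_zero_or σ t
  refine ⟨e, ?_⟩
  change W (pole G e) (chi σ t) < 1 / 2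
  rw [W_chi, he]
  norm_num

theorem exists_path (z : SSet.toTop.obj (NS G)) :
    ∃ δ : Path (pt (vx G .mid)) z, ∀ e, z ∈ cov G e → range δ ⊆ cov G e := by
  obtain ⟨n, σ, t, i, rfl, hi⟩ := exists_mid z
  refine ⟨((line i t).map (chi σ).continuous).cast (chi_vertex_eq σ i hi).symm rfl, ?_⟩
  rintro e he _ ⟨s, rfl⟩
  change W (pole G e) (chi σ (line i t s)) < 1 / 2
  change W (pole G e) (chi σ t) < 1 / 2 at he
  rw [W_chi] at he ⊢
  rw [wt_line _ σ i t (by rw [hi]; exact (pole_ne e).symm) s]
  have h1 := wt_nonneg (pole G e) σ t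
  have h2 := s.2.2
  have h3 := s.2.1
  nlinarith

/-- the inclusion of a member of the cover -/
noncomputable def inc (e : Bool) : C(cov G e, SSet.toTop.obj (NS G)) :=
  ⟨Subtype.val, continuous_subtype_val⟩

theorem inc_null (e : Bool) : (inc (G := G) e).Homotopic
    (ContinuousMap.const (cov G e) (pt (vx G (pole G (!e))))) := by
  -- `id ~ ρ` on the cover
  let ρ : C(cov G e, SSet.toTop.obj (NS G)) :=
    ⟨fun z => H1 (pole G e) (z.1, 1), by fun_prop⟩
  let K : C(SSet.toTop.obj (NS G), SSet.toTop.obj (NS G)) := rmap (nerveMap (kap G e))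
  have a1 : (inc (G := G) e).Homotopic ρ := by
    refine ⟨⟨⟨fun q => H1 (pole G e) (q.2.1, q.1), by fun_prop⟩, fun z => ?_, fun z => rfl⟩⟩
    exact H1_zero _ _
  have a2 : ρ = K.comp ρ := by
    ext z
    obtain ⟨z, hz⟩ := z
    obtain ⟨n, σ, t, rfl⟩ := exists_chi z
    change H1 (pole G e) (chi σ t, 1) = K (H1 (pole G e) (chi σ t, 1))
    rw [H1_chi]
    change W (pole G e) (chi σ t) < 1 / 2 at hz
    rw [W_chi] at hz
    exact (rmap_kap e σ _ fun i hi => mv_one_apply _ σ t hz.le i hi).symm
  have a3 : (K.comp (inc (G := G) e)).Homotopic (K.comp ρ) :=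
    ContinuousMap.Homotopic.comp (ContinuousMap.Homotopic.refl K) a1
  have a4 : (ContinuousMap.const (cov G e) (pt (vx G (pole G (!e))))).Homotopic
      (K.comp (inc (G := G) e)) := by
    refine ⟨⟨⟨fun q => H0 e (q.2.1, q.1), by fun_prop⟩, fun z => ?_, fun z => ?_⟩⟩
    · exact H0_zero e _
    · exact H0_one e _
  rw [a2] at a1
  exact (a1.trans a3.symm).trans a4.symm

theorem homotopic_in_cov (e : Bool) (x y : SSet.toTop.obj (NS G)) (p q : Path x y)
    (hp : range p ⊆ cov G e) (hq : range q ⊆ cov G e) : p.Homotopic q := by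
  have hx : x ∈ cov G e := hp ⟨0, p.source⟩
  have hy : y ∈ cov G e := hp ⟨1, p.target⟩
  let p' : Path (⟨x, hx⟩ : cov G e) ⟨y, hy⟩ :=
    { toFun := fun s => ⟨p s, hp ⟨s, rfl⟩⟩
      continuous_toFun := p.continuous.subtype_mk _
      source' := Subtype.ext p.source
      target' := Subtype.ext p.target }
  let q' : Path (⟨x, hx⟩ : cov G e) ⟨y, hy⟩ :=
    { toFun := fun s => ⟨q s, hq ⟨s, rfl⟩⟩
      continuous_toFun := q.continuous.subtype_mk _
      source' := Subtype.ext q.source
      target' := Subtype.ext q.target }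
  obtain ⟨F⟩ := inc_null (G := G) e
  have h := homotopic_of_homotopy F p' q' (by
    have h1 : p'.map (map_continuous (ContinuousMap.const (cov G e) (pt (vx G (pole G (!e)))))) =
        q'.map (map_continuous (ContinuousMap.const (cov G e) (pt (vx G (pole G (!e)))))) := by
      ext s
      rfl
    rw [h1])
  exact h

instance : SimplyConnectedSpace (SSet.toTop.obj (NS G)) :=
  simplyConnected_of_cover (cov G) isOpen_cov cov_cover (pt (vx G .mid)) exists_path
    homotopic_in_cov

variable (G) in
/-- the realization of the nerve of the suspension category is simply connected -/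
theorem simplyConnectedSpace_susp : SimplyConnectedSpace (SSet.toTop.obj (nerve (Susp G))) :=
  inferInstanceAs (SimplyConnectedSpace (SSet.toTop.obj (NS G)))

end Vale.Agent.P178.H948
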