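import Vale.Agent.P178.H676.Susp

/-! # P178: the poles of the suspension category -/

open CategoryTheory
open Vale.Agent.P178.H676

namespace Vale.Agent.P178.H948

variable {G : Type} [Monoid G]

variable (G) in
/-- the two poles -/
def pole : Bool → Susp G
  | true => .south
  | false => .north

variable (G) in
/-- the morphisms from the poles -/
def toP : ∀ e, pole G e ⟶ .mid
  | true => Susp.toS G
  | false => Susp.toN G

variable (G) in
/-- the functor which replaces a pole by the other one -/
def kap : Bool → (Susp G ⥤ Susp G)
  | true => Susp.Data.functor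
    { S := .north, N := .north, P := .mid, s := Susp.toN G, n := Susp.toN G, ρ := Susp.el
      ρ_one := rfl, ρ_mul := fun _ _ => rfl, s_ρ := fun _ => rfl, n_ρ := fun _ => rfl }
  | false => Susp.Data.functor
    { S := .south, N := .south, P := .mid, s := Susp.toS G, n := Susp.toS G, ρ := Susp.el
      ρ_one := rfl, ρ_mul := fun _ _ => rfl, s_ρ := fun _ => rfl, n_ρ := fun _ => rfl }

theorem kap_obj (e : Bool) {x : Susp G} (h : x ≠ pole G e) : (kap G e).obj x = x := by
  cases e <;> cases x <;> first | rfl | exact absurd rfl h

theorem val_id (x : Susp G) : Susp.val (𝟙 x) = 1 := by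
  cases x <;> rfl

theorem kap_val (e : Bool) {x y : Susp G} (f : x ⟶ y) :
    Susp.val ((kap G e).map f) = Susp.val f := by
  refine Susp.hom_cases (motive := fun f => Susp.val ((kap G e).map f) = Susp.val f)
    ?_ ?_ ?_ ?_ ?_ f
  · rw [CategoryTheory.Functor.map_id, val_id, val_id]
  · rw [CategoryTheory.Functor.map_id, val_id, val_id]
  · cases e <;> rfl
  · cases e <;> rfl
  · intro g; cases e <;> rfl

theorem no_hom (e : Bool) {x : Susp G} (f : x ⟶ pole G e) : x = pole G e := by
  revert f
  cases e <;> cases x <;> intro f <;> first | rfl | exact (nomatch f)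

theorem val_of_ne {x y : Susp G} (f : x ⟶ y) : x ≠ .mid → Susp.val f = 1 := by
  refine Susp.hom_cases (motive := fun {x y} f => x ≠ .mid → Susp.val f = 1) ?_ ?_ ?_ ?_ ?_ f
  · exact fun _ => rfl
  · exact fun _ => rfl
  · exact fun _ => rfl
  · exact fun _ => rfl
  · exact fun _ h => absurd rfl h

theorem pole_ne (e : Bool) : pole G e ≠ .mid := by
  cases e <;> exact fun h => nomatch h

theorem pole_ne_not (e : Bool) : pole G e ≠ pole G (!e) := by
  cases e <;> exact fun h => nomatch h

theorem pole_unique (e : Bool) {x : Susp G} (f g : pole G e ⟶ x) : f = g :=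
  Susp.hom_ext ((val_of_ne f (pole_ne e)).trans (val_of_ne g (pole_ne e)).symm)

/-- the targets of the morphisms from a pole -/
theorem of_pole (e : Bool) {x : Susp G} (f : pole G e ⟶ x) : x = pole G e ∨ x = .mid := by
  revert f
  cases e <;> cases x <;> intro f <;> first | exact Or.inl rfl | exact Or.inr rfl | exact (nomatch f)

theorem of_mid {x : Susp G} (f : (.mid : Susp G) ⟶ x) : x = .mid := by
  revert f
  cases x <;> intro f <;> first | rfl | exact (nomatch f)

theorem pole_or (x : Susp G) : (∃ e, x = pole G e) ∨ x = .mid := by
  cases x
  · exact Or.inl ⟨true, rfl⟩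
  · exact Or.inl ⟨false, rfl⟩
  · exact Or.inr rfl

variable (G) in
/-- the morphism from the other pole -/
def eta : ∀ (e : Bool) (x : Susp G), pole G (!e) ⟶ (kap G e).obj x
  | true, .south => 𝟙 _
  | true, .north => 𝟙 _
  | true, .mid => Susp.toN G
  | false, .south => 𝟙 _
  | false, .north => 𝟙 _
  | false, .mid => Susp.toS G

/-! ### prepending a vertex -/

section Pre

variable {C : Type} [Category.{0} C] {n : ℕ}

/-- the morphisms of the extended chain -/
def preMap (F : Fin (n + 1) ⥤ C) (a : C) (η : ∀ i, a ⟶ F.obj i) (i j : Fin (n + 2)) (h : i ≤ j) :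
    (Fin.cons (α := fun _ => C) a F.obj i ⟶ Fin.cons (α := fun _ => C) a F.obj j) := by
  induction i using Fin.cases with
  | zero =>
    induction j using Fin.cases with
    | zero => exact 𝟙 _
    | succ j => exact η j
  | succ i =>
    induction j using Fin.cases with
    | zero => exact absurd h (by simp)
    | succ j => exact F.map (homOfLE (Fin.succ_le_succ_iff.1 h))

/-- the chain with an additional first object -/
def pre (F : Fin (n + 1) ⥤ C) (a : C) (η : ∀ i, a ⟶ F.obj i)
    (hη : ∀ i j (h : i ⟶ j), η i ≫ F.map h = η j) : Fin (n + 2) ⥤ C where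
  obj i := Fin.cons (α := fun _ => C) a F.obj i
  map {i j} h := preMap F a η i j (leOfHom h)
  map_id i := by
    induction i using Fin.cases with
    | zero => rfl
    | succ i => exact F.map_id i
  map_comp {i j k} h h' := by
    have h1 := leOfHom h
    have h2 := leOfHom h'
    induction i using Fin.cases with
    | zero =>
      induction j using Fin.cases with
      | zero =>
        induction k using Fin.cases with
        | zero => exact (Category.id_comp _).symm
        | succ k => exact (Category.id_comp _).symm
      | succ j =>
        induction k using Fin.cases with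
        | zero => exact absurd h2 (by simp)
        | succ k => exact (hη j k (homOfLE (Fin.succ_le_succ_iff.1 h2))).symm
    | succ i =>
      induction j using Fin.cases with
      | zero => exact absurd h1 (by simp)
      | succ j =>
        induction k using Fin.cases with
        | zero => exact absurd h2 (by simp)
        | succ k =>
          exact F.map_comp (homOfLE (Fin.succ_le_succ_iff.1 h1))
            (homOfLE (Fin.succ_le_succ_iff.1 h2))

end Pre


end Vale.Agent.P178.H948
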