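import Vale.Agent.P178.H948.Wt
import Vale.Agent.P178.H948.Pole

/-! # P178: the functor which replaces a pole by the other one, and the contraction of its image -/

open CategoryTheory Simplicial Opposite Topology Set
open Vale.Agent.P178.H301 Vale.Agent.P178.H676

namespace Vale.Agent.P178.H948

variable {G : Type} [Monoid G]

/-- the simplex `κ σ` -/
def ks (e : Bool) {n : ℕ} (σ : (NS G) _⦋n⦌) : (NS G) _⦋n⦌ := (nerveMap (kap G e)).app _ σ

theorem ks_obj (e : Bool) {n : ℕ} (σ : (NS G) _⦋n⦌) (i : Fin (n + 1)) :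
    ob (ks e σ) i = (kap G e).obj (ob σ i) := rfl

/-- the cone over the simplex `κ σ` -/
def cs (e : Bool) {n : ℕ} (σ : (NS G) _⦋n⦌) : (NS G) _⦋n + 1⦌ :=
  pre (show Fin (n + 1) ⥤ Susp G from ks e σ) (pole G (!e)) (fun i => eta G e (ob σ i))
    fun _ _ _ => pole_unique _ _ _

/-- the extension of an operator -/
def ext {m n : ℕ} (θ : ⦋m⦌ ⟶ ⦋n⦌) : ⦋m + 1⦌ ⟶ ⦋n + 1⦌ :=
  SimplexCategory.mkHom
    ⟨fun i => Fin.cons (α := fun _ => Fin (n + 2)) 0 (fun i => (θ i).succ) i, by
      intro i j h
      induction i using Fin.cases with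
      | zero => exact Fin.zero_le _
      | succ i =>
        induction j using Fin.cases with
        | zero => exact absurd h (by simp)
        | succ j =>
          have := θ.toOrderHom.monotone (Fin.succ_le_succ_iff.1 h)
          exact Fin.succ_le_succ_iff.2 this⟩

theorem cs_map (e : Bool) {m n : ℕ} (θ : ⦋m⦌ ⟶ ⦋n⦌) (σ : (NS G) _⦋n⦌) :
    (NS G).map (ext θ).op (cs e σ) = cs e ((NS G).map θ.op σ) := by
  refine Susp.functor_ext (fun i => ?_) fun i j f => ?_
  · induction i using Fin.cases with
    | zero => rfl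
    | succ i => rfl
  · induction i using Fin.cases with
    | zero =>
      induction j using Fin.cases with
      | zero => rfl
      | succ j => rfl
    | succ i =>
      induction j using Fin.cases with
      | zero => exact absurd (leOfHom f) (by simp)
      | succ j => rfl

/-- the face opposite to the cone point -/
theorem cs_face (e : Bool) {n : ℕ} (σ : (NS G) _⦋n⦌) :
    (NS G).map (SimplexCategory.δ 0).op (cs e σ) = ks e σ := by
  refine Susp.functor_ext (fun i => ?_) fun i j f => ?_
  · rfl
  · rfl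

variable (G) in
/-- the vertices of the nerve -/
def vx (x : Susp G) : (NS G) _⦋0⦌ := (Functor.const _).obj x

theorem fin1_val (F : Fin 1 ⥤ Susp G) (i j : Fin 1) (f : i ⟶ j) : Susp.val (F.map f) = 1 := by
  obtain rfl : i = 0 := Subsingleton.elim _ _
  obtain rfl : j = 0 := Subsingleton.elim _ _
  obtain rfl : f = 𝟙 _ := Subsingleton.elim _ _
  rw [F.map_id, val_id]

theorem eq_vx (ρ : (NS G) _⦋0⦌) {x : Susp G} (h : ob ρ 0 = x) : ρ = vx G x := by
  refine Susp.functor_ext (fun i => ?_) fun i j f => ?_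
  · obtain rfl : i = 0 := Subsingleton.elim (α := Fin 1) _ _
    exact h
  · exact (fin1_val ρ i j f).trans (fin1_val (vx G x) i j f).symm

theorem chi_vertex_eq {n : ℕ} (σ : (NS G) _⦋n⦌) (i : Fin (n + 1)) {x : Susp G}
    (h : ob σ i = x) : chi σ (stdSimplex.vertex i) = pt (vx G x) := by
  rw [chi_vertex]
  congr 1
  exact eq_vx _ h

/-- the join coordinate -/
noncomputable def jn {n : ℕ} : C(Dx n × unitInterval, Dx (n + 1)) :=
  ⟨fun q => ⟨Fin.cons (α := fun _ => ℝ) (1 - (q.2 : ℝ)) fun i => (q.2 : ℝ) * q.1 i, by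
      refine ⟨fun i => ?_, ?_⟩
      · induction i using Fin.cases with
        | zero => exact sub_nonneg.2 q.2.2.2
        | succ i => exact mul_nonneg q.2.2.1 (q.1.2.1 i)
      · rw [Fin.sum_univ_succ]
        simp only [Fin.cons_zero, Fin.cons_succ]
        rw [← Finset.mul_sum, sum_dx]
        ring⟩, by
    refine Continuous.subtype_mk (continuous_pi fun i => ?_) _
    induction i using Fin.cases with
    | zero => exact continuous_const.sub (continuous_subtype_val.comp continuous_snd)
    | succ i =>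
      exact (continuous_subtype_val.comp continuous_snd).mul
        (((continuous_apply i).comp continuous_subtype_val).comp continuous_fst)⟩

theorem jn_zero_apply {n : ℕ} (t : Dx n) (s : unitInterval) : jn (t, s) 0 = 1 - (s : ℝ) := rfl

theorem jn_succ_apply {n : ℕ} (t : Dx n) (s : unitInterval) (i : Fin (n + 1)) :
    jn (t, s) i.succ = (s : ℝ) * t i := rfl

theorem om_jn {m n : ℕ} (θ : ⦋m⦌ ⟶ ⦋n⦌) (t : Dx m) (s : unitInterval) :
    om (ext θ) (jn (t, s)) = jn (om θ t, s) := by
  apply Subtype.ext
  funext j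
  change om (ext θ) (jn (t, s)) j = jn (om θ t, s) j
  rw [om_apply', Fin.sum_univ_succ]
  have e0 : (ext θ) 0 = 0 := rfl
  have e1 : ∀ i, (ext θ) (Fin.succ i) = (θ i).succ := fun i => rfl
  induction j using Fin.cases with
  | zero =>
    rw [e0, if_pos rfl]
    simp only [e1]
    rw [Finset.sum_eq_zero, add_zero]
    · rfl
    · intro i _
      rw [if_neg (Fin.succ_ne_zero _)]
  | succ j =>
    rw [e0, if_neg (Fin.succ_ne_zero j).symm, zero_add]
    simp only [e1]
    rw [jn_succ_apply, om_apply', Finset.mul_sum]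
    refine Finset.sum_congr rfl fun i _ => ?_
    by_cases h : θ i = j
    · rw [if_pos h, if_pos (by rw [h])]; rfl
    · rw [if_neg h, if_neg (fun h' => h (Fin.succ_injective _ h')), mul_zero]

/-- the contraction -/
noncomputable def cf (e : Bool) : HFam (NS G) (SSet.toTop.obj (NS G)) where
  f n σ := (chi (cs e σ)).comp jn
  nat θ σ t s := by
    change chi (cs e ((NS G).map θ.op σ)) (jn (t, s)) = chi (cs e σ) (jn (om θ t, s))
    rw [← cs_map, chi_map, om_jn]

/-- the contraction -/
noncomputable def H0 (e : Bool) : C(SSet.toTop.obj (NS G) × unitInterval, SSet.toTop.obj (NS G)) :=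
  (cf e).desc

theorem H0_chi (e : Bool) {n : ℕ} (σ : (NS G) _⦋n⦌) (t : Dx n) (s : unitInterval) :
    H0 e (chi σ t, s) = chi (cs e σ) (jn (t, s)) :=
  (cf e).desc_chi σ t s

theorem H0_zero (e : Bool) (z : SSet.toTop.obj (NS G)) : H0 e (z, 0) = pt (vx G (pole G (!e))) := by
  obtain ⟨n, σ, t, rfl⟩ := exists_chi z
  rw [H0_chi]
  have h : jn (t, 0) = stdSimplex.vertex (0 : Fin (n + 2)) := by
    apply Subtype.ext
    funext i
    change jn (t, 0) i = stdSimplex.vertex (S := ℝ) (0 : Fin (n + 2)) i
    induction i using Fin.cases with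
    | zero =>
      rw [jn_zero_apply]
      simp
    | succ i =>
      rw [jn_succ_apply]
      simp
  rw [h]
  exact chi_vertex_eq _ 0 rfl

theorem H0_one (e : Bool) (z : SSet.toTop.obj (NS G)) :
    H0 e (z, 1) = rmap (nerveMap (kap G e)) z := by
  obtain ⟨n, σ, t, rfl⟩ := exists_chi z
  rw [H0_chi, rmap_chi]
  change _ = chi (ks e σ) t
  rw [← cs_face, chi_map]
  congr 1
  apply Subtype.ext
  funext j
  change jn (t, 1) j = om (SimplexCategory.δ 0) t j
  rw [om_apply']
  have e1 : ∀ i : Fin (n + 1), (SimplexCategory.δ (0 : Fin (n + 2))) i = i.succ := fun i => rfl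
  simp only [e1]
  induction j using Fin.cases with
  | zero =>
    rw [jn_zero_apply, Finset.sum_eq_zero]
    · simp
    · intro i _
      rw [if_neg (Fin.succ_ne_zero _)]
  | succ j =>
    rw [jn_succ_apply]
    simp

end Vale.Agent.P178.H948
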