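import Mathlib.AlgebraicTopology.FundamentalGroupoid.SimplyConnected
import Mathlib.Topology.Subpath

/-! # P178, simple connectivity: a weak form of van Kampen's theorem -/

open Set Topology unitInterval

namespace Vale.Agent.P178.H948

variable {Z : Type*} [TopologicalSpace Z]

theorem homotopic_of_cast {z0 : Z} (δ : ∀ x, Path z0 x) {x y x' y' : Z} (hx : x' = x)
    (hy : y' = y) (γ : Path x y) (h : ((δ x').trans (γ.cast hx hy)).Homotopic (δ y')) :
    ((δ x).trans γ).Homotopic (δ y) := by
  subst hx hy
  exact h

theorem cancel_left {x y z : Z} (r : Path x y) {p q : Path y z}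
    (h : (r.trans p).Homotopic (r.trans q)) : p.Homotopic q := by
  have h1 : (r.symm.trans (r.trans p)).Homotopic (r.symm.trans (r.trans q)) :=
    Path.Homotopic.hcomp (Path.Homotopic.refl _) h
  have h2 : ∀ s : Path y z, (r.symm.trans (r.trans s)).Homotopic s := by
    intro s
    have e1 : ((r.symm.trans r).trans s).Homotopic (r.symm.trans (r.trans s)) :=
      ⟨Path.Homotopy.transAssoc _ _ _⟩
    have e2 : (Path.refl y).Homotopic (r.symm.trans r) := ⟨Path.Homotopy.reflSymmTrans _⟩
    have e3 : ((r.symm.trans r).trans s).Homotopic ((Path.refl y).trans s) :=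
      Path.Homotopic.hcomp e2.symm (Path.Homotopic.refl _)
    exact (e1.symm.trans e3).trans ⟨Path.Homotopy.reflTrans _⟩
  exact ((h2 p).symm.trans h1).trans (h2 q)

theorem cancel_right {x y z : Z} {p q : Path x y} (r : Path y z)
    (h : (p.trans r).Homotopic (q.trans r)) : p.Homotopic q := by
  have h1 : ((p.trans r).trans r.symm).Homotopic ((q.trans r).trans r.symm) :=
    Path.Homotopic.hcomp h (Path.Homotopic.refl _)
  have h2 : ∀ s : Path x y, ((s.trans r).trans r.symm).Homotopic s := by
    intro s
    have e1 : ((s.trans r).trans r.symm).Homotopic (s.trans (r.trans r.symm)) :=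
      ⟨Path.Homotopy.transAssoc _ _ _⟩
    have e2 : (Path.refl y).Homotopic (r.trans r.symm) := ⟨Path.Homotopy.reflTransSymm _⟩
    have e3 : (s.trans (r.trans r.symm)).Homotopic (s.trans (Path.refl y)) :=
      Path.Homotopic.hcomp (Path.Homotopic.refl _) e2.symm
    exact (e1.trans e3).trans ⟨Path.Homotopy.transRefl _⟩
  exact ((h2 p).symm.trans h1).trans (h2 q)

/-- A space is simply connected if it has an open cover such that every point is joined to a base
point by a path which stays in all the members of the cover which contain the point, and such that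
two paths in a member of the cover with the same end points are homotopic (in the whole space). -/
theorem simplyConnected_of_cover {ι : Type*} (c : ι → Set Z) (hc : ∀ i, IsOpen (c i))
    (hcov : ∀ x, ∃ i, x ∈ c i) (z0 : Z)
    (hδ : ∀ x, ∃ δ : Path z0 x, ∀ i, x ∈ c i → range δ ⊆ c i)
    (hU : ∀ i (x y : Z) (p q : Path x y), range p ⊆ c i → range q ⊆ c i → p.Homotopic q) :
    SimplyConnectedSpace Z := by
  choose δ hδ using hδ
  have key : ∀ {x y : Z} (γ : Path x y), ((δ x).trans γ).Homotopic (δ y) := by
    intro x y γ
    obtain ⟨t, ht0, htm, ⟨m, hm⟩, hti⟩ := exists_monotone_Icc_subset_open_cover_unitInterval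
      (c := fun i => γ ⁻¹' c i) (fun i => (hc i).preimage γ.continuous)
      (fun s _ => by
        obtain ⟨i, hi⟩ := hcov (γ s)
        exact mem_iUnion.2 ⟨i, hi⟩)
    have ind : ∀ n, ((δ (γ 0)).trans (γ.subpath 0 (t n))).Homotopic (δ (γ (t n))) := by
      intro n
      induction n with
      | zero =>
        rw [ht0, Path.subpath_self]
        exact ⟨Path.Homotopy.transRefl _⟩
      | succ n ih =>
        obtain ⟨i, hi⟩ := hti n
        have hle : t n ≤ t (n + 1) := htm (Nat.le_succ n)
        have h1 : ((γ.subpath 0 (t n)).trans (γ.subpath (t n) (t (n + 1)))).Homotopic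
            (γ.subpath 0 (t (n + 1))) := ⟨Path.Homotopy.subpathTransSubpath γ 0 (t n) (t (n + 1))⟩
        have h2 : ((δ (γ (t n))).trans (γ.subpath (t n) (t (n + 1)))).Homotopic
            (δ (γ (t (n + 1)))) := by
          refine hU i _ _ _ _ ?_ ?_
          · rw [Path.trans_range]
            refine union_subset (hδ _ i (hi (left_mem_Icc.2 hle))) ?_
            rw [Path.range_subpath_of_le _ _ _ hle, image_subset_iff]
            exact hi
          · exact hδ _ i (hi (right_mem_Icc.2 hle))
        have h3 : ((δ (γ 0)).trans (γ.subpath 0 (t (n + 1)))).Homotopic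
            ((δ (γ 0)).trans ((γ.subpath 0 (t n)).trans (γ.subpath (t n) (t (n + 1))))) :=
          Path.Homotopic.hcomp (Path.Homotopic.refl _) h1.symm
        have h4' : (((δ (γ 0)).trans (γ.subpath 0 (t n))).trans
            (γ.subpath (t n) (t (n + 1)))).Homotopic
            ((δ (γ 0)).trans ((γ.subpath 0 (t n)).trans (γ.subpath (t n) (t (n + 1))))) :=
          ⟨Path.Homotopy.transAssoc _ _ _⟩
        have h5 : (((δ (γ 0)).trans (γ.subpath 0 (t n))).trans
            (γ.subpath (t n) (t (n + 1)))).Homotopic
            ((δ (γ (t n))).trans (γ.subpath (t n) (t (n + 1)))) :=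
          Path.Homotopic.hcomp ih (Path.Homotopic.refl _)
        exact ((h3.trans h4'.symm).trans h5).trans h2
    have h := ind m
    rw [hm m le_rfl, Path.subpath_zero_one] at h
    exact homotopic_of_cast δ γ.source γ.target γ h
  have : PathConnectedSpace Z := ⟨⟨z0⟩, fun x y => ⟨(δ x).symm.trans (δ y)⟩⟩
  rw [simply_connected_iff_paths_homotopic']
  exact ⟨this, fun {x y} p q => cancel_left (δ x) ((key p).trans (key q).symm)⟩

/-- If `f` is homotopic to `g` and the images of two paths under `g` are homotopic, then the images
under `f` are homotopic. -/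
theorem homotopic_of_homotopy {Y : Type*} [TopologicalSpace Y] {f g : C(Y, Z)} (F : f.Homotopy g)
    {x y : Y} (p q : Path x y)
    (h : (p.map (map_continuous g)).Homotopic (q.map (map_continuous g))) :
    (p.map (map_continuous f)).Homotopic (q.map (map_continuous f)) := by
  have hp := Path.Homotopic.map_trans_evalAt F p
  have hq := Path.Homotopic.map_trans_evalAt F q
  refine cancel_right (F.evalAt y) ?_
  exact (hp.trans (Path.Homotopic.hcomp (Path.Homotopic.refl _) h)).trans hq.symm

end Vale.Agent.P178.H948
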