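import Vale.Agent.P178.H301.Real
import Vale.Agent.P178.H676.Susp
import Vale.Agent.P178.H948.VK

/-! # P178: the weight of a pole on the realization of the suspension category, and the homotopy
which moves the points away from a pole -/

open CategoryTheory Simplicial Opposite Topology Set
open Vale.Agent.P178.H301 Vale.Agent.P178.H676

namespace Vale.Agent.P178.H948

/-- the topological simplex with `n + 1` vertices -/
abbrev Dx (n : ℕ) : Type := stdSimplex ℝ (Fin (n + 1))

variable {G : Type} [Monoid G]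

variable (G) in
/-- the nerve of the suspension category -/
abbrev NS : SSet.{0} := nerve (Susp G)

/-- the object at a vertex of a simplex -/
def ob {n : ℕ} (σ : (NS G) _⦋n⦌) (i : Fin (n + 1)) : Susp G := σ.obj i

theorem ob_map {m n : ℕ} (θ : ⦋m⦌ ⟶ ⦋n⦌) (σ : (NS G) _⦋n⦌) (i : Fin (m + 1)) :
    ob ((NS G).map θ.op σ) i = ob σ (θ i) := rfl

open Classical in
/-- the total weight of the vertices which are equal to `b` -/
noncomputable def wt (b : Susp G) {n : ℕ} (σ : (NS G) _⦋n⦌) (t : Dx n) : ℝ :=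
  ∑ i, if ob σ i = b then t i else 0

theorem om_apply' {m n : ℕ} (θ : ⦋m⦌ ⟶ ⦋n⦌) (t : Dx m) (j : Fin (n + 1)) :
    om θ t j = ∑ i, if θ i = j then t i else 0 := by
  rw [om_apply, Finset.sum_filter]

/-- sums over the vertices -/
theorem sum_om {m n : ℕ} (θ : ⦋m⦌ ⟶ ⦋n⦌) (t : Dx m) (c : Fin (n + 1) → ℝ) :
    ∑ j, c j * om θ t j = ∑ i, c (θ i) * t i := by
  simp only [om_apply', Finset.mul_sum]
  rw [Finset.sum_comm]
  refine Finset.sum_congr rfl fun i _ => ?_
  rw [Finset.sum_eq_single (θ i)]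
  · rw [if_pos rfl]
  · intro j _ hj
    rw [if_neg (Ne.symm hj), mul_zero]
  · intro h
    exact absurd (Finset.mem_univ _) h

open Classical in
theorem wt_eq (b : Susp G) {n : ℕ} (σ : (NS G) _⦋n⦌) (t : Dx n) :
    wt b σ t = ∑ i, (if ob σ i = b then 1 else 0) * t i := by
  refine Finset.sum_congr rfl fun i _ => ?_
  split_ifs <;> simp

theorem wt_map (b : Susp G) {m n : ℕ} (θ : ⦋m⦌ ⟶ ⦋n⦌) (σ : (NS G) _⦋n⦌) (t : Dx m) :
    wt b ((NS G).map θ.op σ) t = wt b σ (om θ t) := by
  classical
  rw [wt_eq, wt_eq, sum_om]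
  rfl

theorem continuous_wt (b : Susp G) {n : ℕ} (σ : (NS G) _⦋n⦌) : Continuous (wt b σ) := by
  classical
  unfold wt
  refine continuous_finsetSum _ fun i _ => ?_
  split_ifs
  · exact (continuous_apply i).comp continuous_subtype_val
  · exact continuous_const

theorem wt_nonneg (b : Susp G) {n : ℕ} (σ : (NS G) _⦋n⦌) (t : Dx n) : 0 ≤ wt b σ t := by
  classical
  refine Finset.sum_nonneg fun i _ => ?_
  split_ifs
  · exact t.2.1 i
  · exact le_rfl

theorem sum_dx {n : ℕ} (t : Dx n) : ∑ i, t i = 1 := t.2.2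

open Classical in
theorem wt_compl (b : Susp G) {n : ℕ} (σ : (NS G) _⦋n⦌) (t : Dx n) :
    ∑ i, (if ob σ i = b then 0 else t i) = 1 - wt b σ t := by
  have h : (∑ i, if ob σ i = b then 0 else t i) + wt b σ t = ∑ i, t i := by
    rw [wt, ← Finset.sum_add_distrib]
    refine Finset.sum_congr rfl fun i _ => ?_
    split_ifs <;> simp
  rw [sum_dx] at h
  linarith

theorem wt_le_one (b : Susp G) {n : ℕ} (σ : (NS G) _⦋n⦌) (t : Dx n) : wt b σ t ≤ 1 := by
  classical
  have h := wt_compl b σ t
  have h2 : 0 ≤ ∑ i, (if ob σ i = b then 0 else t i) := by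
    refine Finset.sum_nonneg fun i _ => ?_
    split_ifs
    · exact le_rfl
    · exact t.2.1 i
  linarith

/-! ### the homotopy -/

/-- the cut off -/
noncomputable def cut (w : ℝ) : ℝ := max 0 (min 1 (3 - 4 * w))

noncomputable def cf1 (w s : ℝ) : ℝ := 1 - s * cut w

noncomputable def cf2 (w s : ℝ) : ℝ := 1 + s * cut w * w / max (1 - w) (1 / 4)

theorem cut_nonneg (w : ℝ) : 0 ≤ cut w := le_max_left _ _

theorem cut_le_one (w : ℝ) : cut w ≤ 1 := max_le zero_le_one (min_le_left _ _)

theorem cut_of_le {w : ℝ} (h : w ≤ 1 / 2) : cut w = 1 := by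
  unfold cut
  rw [min_eq_left (by linarith), max_eq_right zero_le_one]

theorem cut_of_ge {w : ℝ} (h : 3 / 4 ≤ w) : cut w = 0 := by
  unfold cut
  rw [max_eq_left]
  exact (min_le_right _ _).trans (by linarith)

theorem continuous_cut : Continuous cut := by unfold cut; fun_prop

theorem continuous_cf1 : Continuous fun q : ℝ × ℝ => cf1 q.1 q.2 := by
  unfold cf1
  have := continuous_cut
  fun_prop

theorem continuous_cf2 : Continuous fun q : ℝ × ℝ => cf2 q.1 q.2 := by
  unfold cf2
  have h := continuous_cut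
  refine continuous_const.add (Continuous.div (by fun_prop) (by fun_prop) fun q => ?_)
  exact (lt_of_lt_of_le (by norm_num) (le_max_right _ _)).ne'

theorem cf_sum (w s : ℝ) : cf1 w s * w + cf2 w s * (1 - w) = 1 := by
  unfold cf1 cf2
  rcases le_total (3 / 4) w with h | h
  · rw [cut_of_ge h]; ring
  · have h1 : max (1 - w) (1 / 4) = 1 - w := max_eq_left (by linarith)
    have h2 : (1 - w) ≠ 0 := by
      intro h3
      linarith
    rw [h1]
    field_simp
    ring

theorem cf1_nonneg (w : ℝ) (s : unitInterval) : 0 ≤ cf1 w s := by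
  unfold cf1
  have h1 := s.2.1
  have h2 := s.2.2
  have h3 := cut_nonneg w
  have h4 := cut_le_one w
  have h5 : (s : ℝ) * cut w ≤ 1 := mul_le_one₀ h2 h3 h4
  linarith

theorem cf2_nonneg {w : ℝ} (hw : 0 ≤ w) (s : unitInterval) : 0 ≤ cf2 w s := by
  unfold cf2
  have h1 := s.2.1
  have h3 := cut_nonneg w
  have h4 : 0 < max (1 - w) (1 / 4) := lt_of_lt_of_le (by norm_num) (le_max_right _ _)
  positivity

theorem cf_zero (w : ℝ) : cf1 w 0 = 1 ∧ cf2 w 0 = 1 := by
  unfold cf1 cf2
  simp

open Classical in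
/-- the motion of the simplex -/
noncomputable def mvf (b : Susp G) {n : ℕ} (σ : (NS G) _⦋n⦌) (t : Dx n) (s : unitInterval)
    (i : Fin (n + 1)) : ℝ :=
  (if ob σ i = b then cf1 (wt b σ t) s else cf2 (wt b σ t) s) * t i

theorem mvf_mem (b : Susp G) {n : ℕ} (σ : (NS G) _⦋n⦌) (t : Dx n) (s : unitInterval) :
    mvf b σ t s ∈ stdSimplex ℝ (Fin (n + 1)) := by
  classical
  refine ⟨fun i => ?_, ?_⟩
  · refine mul_nonneg ?_ (t.2.1 i)
    split_ifs
    · exact cf1_nonneg _ s
    · exact cf2_nonneg (wt_nonneg b σ t) s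
  · have h : ∑ i, mvf b σ t s i = cf1 (wt b σ t) s * (wt b σ t) +
        cf2 (wt b σ t) s * ∑ i, (if ob σ i = b then 0 else t i) := by
      conv_rhs => rw [show cf1 (wt b σ t) s * (wt b σ t) =
        cf1 (wt b σ t) s * ∑ i, (if ob σ i = b then t i else 0) from rfl]
      rw [Finset.mul_sum, Finset.mul_sum, ← Finset.sum_add_distrib]
      refine Finset.sum_congr rfl fun i _ => ?_
      unfold mvf
      split_ifs <;> simp
    rw [h, wt_compl, cf_sum]

/-- the motion of the simplex -/
noncomputable def mv (b : Susp G) {n : ℕ} (σ : (NS G) _⦋n⦌) : C(Dx n × unitInterval, Dx n) :=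
  ⟨fun q => ⟨mvf b σ q.1 q.2, mvf_mem b σ q.1 q.2⟩, by
    classical
    refine Continuous.subtype_mk (continuous_pi fun i => ?_) _
    have h1 : Continuous fun q : Dx n × unitInterval => (wt b σ q.1, (q.2 : ℝ)) :=
      ((continuous_wt b σ).comp continuous_fst).prodMk (continuous_subtype_val.comp continuous_snd)
    have h2 : Continuous fun q : Dx n × unitInterval => q.1 i :=
      ((continuous_apply i).comp continuous_subtype_val).comp continuous_fst
    unfold mvf
    refine Continuous.mul ?_ h2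
    split_ifs
    · exact continuous_cf1.comp h1
    · exact continuous_cf2.comp h1⟩

theorem mv_apply (b : Susp G) {n : ℕ} (σ : (NS G) _⦋n⦌) (t : Dx n) (s : unitInterval)
    (i : Fin (n + 1)) : mv b σ (t, s) i = mvf b σ t s i := rfl

theorem mv_nat (b : Susp G) {m n : ℕ} (θ : ⦋m⦌ ⟶ ⦋n⦌) (σ : (NS G) _⦋n⦌) (t : Dx m)
    (s : unitInterval) :
    om θ (mv b ((NS G).map θ.op σ) (t, s)) = mv b σ (om θ t, s) := by
  classical
  apply Subtype.ext
  funext j
  change om θ (mv b ((NS G).map θ.op σ) (t, s)) j = mvf b σ (om θ t) s j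
  rw [om_apply', mvf, om_apply', Finset.mul_sum]
  refine Finset.sum_congr rfl fun i _ => ?_
  split_ifs with h1 h2 h2
  · rw [mv_apply, mvf, wt_map, if_pos (by rw [ob_map, h1]; exact h2)]
  · rw [mv_apply, mvf, wt_map, if_neg (by rw [ob_map, h1]; exact h2)]
  · rw [mul_zero]
  · rw [mul_zero]

/-- the homotopy on the realization -/
noncomputable def hf (b : Susp G) : HFam (NS G) (SSet.toTop.obj (NS G)) where
  f n σ := (chi σ).comp (mv b σ)
  nat θ σ t s := by
    change chi ((NS G).map θ.op σ) (mv b _ (t, s)) = chi σ (mv b σ (om θ t, s))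
    rw [chi_map, mv_nat]

/-- the weight as a function on the realization -/
noncomputable def wf (b : Susp G) : Fam (NS G) ℝ where
  f n σ := ⟨wt b σ, continuous_wt b σ⟩
  nat θ σ t := wt_map b θ σ t

/-- the weight as a function on the realization -/
noncomputable def W (b : Susp G) : C(SSet.toTop.obj (NS G), ℝ) := (wf b).desc

theorem W_chi (b : Susp G) {n : ℕ} (σ : (NS G) _⦋n⦌) (t : Dx n) : W b (chi σ t) = wt b σ t :=
  (wf b).desc_chi σ t

/-- the homotopy on the realization -/
noncomputable def H1 (b : Susp G) : C(SSet.toTop.obj (NS G) × unitInterval, SSet.toTop.obj (NS G)) :=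
  (hf b).desc

theorem H1_chi (b : Susp G) {n : ℕ} (σ : (NS G) _⦋n⦌) (t : Dx n) (s : unitInterval) :
    H1 b (chi σ t, s) = chi σ (mv b σ (t, s)) :=
  (hf b).desc_chi σ t s

theorem H1_zero (b : Susp G) (z : SSet.toTop.obj (NS G)) : H1 b (z, 0) = z := by
  classical
  obtain ⟨n, σ, t, rfl⟩ := exists_chi z
  rw [H1_chi]
  congr 1
  apply Subtype.ext
  funext i
  change mvf b σ t 0 i = t i
  obtain ⟨e1, e2⟩ := cf_zero (wt b σ t)
  unfold mvf
  have e3 : ((0 : unitInterval) : ℝ) = 0 := rfl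
  rw [e3, e1, e2]
  simp

/-- at the end of the homotopy, the points of small weight have weight zero -/
theorem mv_one_apply (b : Susp G) {n : ℕ} (σ : (NS G) _⦋n⦌) (t : Dx n) (h : wt b σ t ≤ 1 / 2)
    (i : Fin (n + 1)) (hi : ob σ i = b) : mv b σ (t, 1) i = 0 := by
  classical
  rw [mv_apply, mvf, if_pos hi, cf1, cut_of_le h]
  simp

end Vale.Agent.P178.H948
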